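import Vale.Agent.Lib.P038.SatK.I.P6_3.H
noncomputable section
namespace Vale.Agent.Lib.P038.SatK.I.P6_3.S0
open Vale.Agent.Lib.P038.Sat Vale.Agent.Lib.P038.SatK Vale.Agent.Lib.P038.SatK.I.P6_3
def b0 : List Nat := [nat_lit 1125899906842647,nat_lit 5767070437771329937,nat_lit 6919569738402381697,nat_lit 3460945970693422976,nat_lit 1196303010758695,nat_lit 7496523097785516449,nat_lit 985213958094903,nat_lit 578782981091770801,nat_lit 1266706114674759,nat_lit 1731985977855197633,nat_lit 1337092038721623,nat_lit 5190820877599785425,nat_lit 1055634241880167,nat_lit 1155314153678979553,nat_lit 33068096847053758808992,nat_lit 37793921601864705655728,nat_lit 18901573577739329749952,nat_lit 23625092559909807342544,nat_lit 51959868269732394058720,nat_lit 2111225534087176]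
def p0 : List Nat := [nat_lit 4503599627452416,nat_lit 9007199254839296,nat_lit 13510798882160640,nat_lit 22520197160214533,nat_lit 31528495926484999,nat_lit 40536794692870152,nat_lit 49545093459288074,nat_lit 58553392225599500,nat_lit 516540362010038165509,nat_lit 553424840209423466496,nat_lit 590349859051792269322,nat_lit 627234338900445011976,nat_lit 664118815450562912256,nat_lit 10445360463891]
def o0 : List Nat := [nat_lit 19]
theorem ok : segCheck (Gen.gen sh_6_3_0_f (flP 6 3)) W M GT 5 0 1 H [b0] [] [p0] [o0] = true := by decide +kernel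
theorem seg {τ : Nat → Bool} (hgen : ∀ t c, Gen.gen sh_6_3_0_f (flP 6 3) t = some c → holdsG τ c)
  (hin : ∀ g, g < 0 → HL W (loc GT τ) (getB H g)) :
  ∀ g, 0 ≤ g → g < 1 → HL W (loc GT τ) (getB H g) :=
  segCheck_sound ok hgen hin
end Vale.Agent.Lib.P038.SatK.I.P6_3.S0
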